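import Vale.Agent.P088.H442.C.Defs

/-!
# P088, Theorem C, row C_BK: the gauge is unique
-/

open MeasureTheory Set
open scoped ContDiff Matrix

noncomputable section

namespace Vale.Agent.P088.H745

open Vale.Agent.P088.LR Vale.Agent.P088.LR.CF Vale.Agent.P088.LR.CC

variable {n : ℕ}

theorem bal_core : bal n ⊆ core n := by
  intro x hx j
  have h1 : (x j - 1 / 2) ^ 2 ≤ 1 / 16 :=
    (Finset.single_le_sum (f := fun j => (x j - 1 / 2) ^ 2) (fun i _ => sq_nonneg _)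
      (Finset.mem_univ j)).trans hx
  have h2 : |x j - 1 / 2| ≤ 1 / 4 := by
    refine abs_le_of_sq_le_sq ?_ (by norm_num)
    nlinarith
  rw [abs_le] at h2
  constructor <;> linarith [h2.1, h2.2]

theorem core_cube : core n ⊆ cube n := by
  intro x hx j
  have := hx j
  constructor <;> linarith [this.1, this.2]

theorem core_compact : IsCompact (core n) := by
  have : core n = Set.Icc (fun _ => 1 / 4) (fun _ => 3 / 4) := by
    ext x
    simp only [core, Set.mem_ofPred_eq, Set.mem_Icc, Pi.le_def]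
    exact ⟨fun h => ⟨fun j => (h j).1, fun j => (h j).2⟩, fun h j => ⟨h.1 j, h.2 j⟩⟩
  rw [this]
  exact isCompact_Icc

theorem exists_cl {k : ℕ} {f : V n → ℂ} (hf : ContDiff ℝ ∞ f) (hc : HasCompactSupport f) :
    ∃ B : ℝ, Cl k B f := by
  have h : ∀ l : ℕ, ∃ C, ∀ x, ‖iteratedFDeriv ℝ l f x‖ ≤ C := fun l =>
    (hf.continuous_iteratedFDeriv (by exact_mod_cast le_top)).bounded_above_of_compact_support
      (hc.iteratedFDeriv l)
  choose C hC using h
  refine ⟨∑ l ∈ Finset.range (k + 1), |C l|, fun l hl x => ?_⟩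
  calc ‖iteratedFDeriv ℝ l f x‖ ≤ C l := hC l x
    _ ≤ |C l| := le_abs_self _
    _ ≤ ∑ l ∈ Finset.range (k + 1), |C l| :=
      Finset.single_le_sum (f := fun l => |C l|) (fun i _ => abs_nonneg _)
        (Finset.mem_range.mpr (by omega))

theorem bt_triv {φ q₀ : V n → ℝ} (h : Ba φ q₀) : Bt ∅ φ q₀ (fun _ => 1) q₀ where
  ba := h
  op := isOpen_empty
  reg := by simp
  sub := empty_subset _
  sm := fun _ _ => contDiff_const
  sy := fun _ => Matrix.isSymm_one
  off := fun _ _ => rfl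
  sq := h.sq
  eq := h.eq
  st := fun U W _ _ _ _ => by simp [bl]

theorem cl_zero {F : Type*} [NormedAddCommGroup F] [NormedSpace ℝ F] (k : ℕ) {a : ℝ}
    (ha : 0 ≤ a) : Cl k a (fun _ : V n => (0 : F)) := by
  intro l _ x
  have : iteratedFDeriv ℝ l (fun _ : V n => (0 : F)) x = 0 := by
    simpa only [Pi.zero_apply] using congrFun (iteratedFDeriv_fun_zero (𝕜 := ℝ) (E := V n) (F := F) (n := l)) x
  rw [this, norm_zero]
  exact ha

theorem sz_triv (m : ℕ) (q₀ : V n → ℝ) : Sz m 0 (fun _ => 1) q₀ q₀ := by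
  refine ⟨fun i j => ?_, ?_⟩
  · have : ent (fun _ : V n => (1 : Matrix (Fin n) (Fin n) ℝ)) i j = fun _ => 0 := by
      funext x; simp [ent]
    rw [this]; exact cl_zero m le_rfl
  · have : (fun x => cx q₀ x - cx q₀ x) = fun _ : V n => (0 : ℂ) := by
      funext x; simp
    rw [this]; exact cl_zero m le_rfl

theorem sz_le {m m' : ℕ} {a : ℝ} {t : MF n} {q₀ q : V n → ℝ} (h : Sz m' a t q₀ q)
    (hm : m ≤ m') : Sz m a t q₀ q :=
  ⟨fun i j l hl => h.1 i j l (hl.trans hm), fun l hl => h.2 l (hl.trans hm)⟩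

theorem nr_xg (jj : Fin n → Fin n) {X : ℝ} (hX : 0 ≤ X) (i : Fin n) : nr (xg jj X i) = X := by
  unfold nr xg
  rw [Finset.sum_eq_single (jj i)]
  · rw [Pi.single_eq_same, neg_sq, Real.sqrt_sq hX]
  · intro j _ hj
    rw [Pi.single_eq_of_ne hj]; simp
  · intro h; exact absurd (Finset.mem_univ _) h

theorem xg_self (jj : Fin n → Fin n) (X : ℝ) {i : Fin n} (h : jj i ≠ i) : xg jj X i i = 0 := by
  unfold xg
  rw [Pi.single_eq_of_ne (Ne.symm h)]

theorem solQ_eq {z : Fin n → ℂ} {θ : V n} {t : MF n} {q : V n → ℝ} {c c' : Ix n → ℂ}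
    {u u' : V n → ℂ} (h : SolQ z θ t q c u) (h' : SolQ z θ t q c' u') (hc : c = c') : u = u' := by
  funext x
  rw [h.val, h'.val, hc]

theorem lip {w : V n → V n} (hw : ContDiff ℝ ∞ w) {b : ℝ} (hc : Cl 1 b w) (x y : V n) :
    ‖w x - w y‖ ≤ b * ‖x - y‖ := by
  refine Convex.norm_image_sub_le_of_norm_fderiv_le (s := univ) (𝕜 := ℝ)
    (fun z _ => (hw.differentiable (by simp)) z) (fun z _ => ?_) convex_univ (mem_univ y)
    (mem_univ x)
  rw [← norm_iteratedFDeriv_one]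
  exact hc 1 le_rfl z

/-- Row C_BK. -/
theorem bk (hBA : RowBAC) (hUQ : RowUQC) (hCV : RowCVC) (hGW : RowGWC) : RowBKC := by
  intro n φ q₀ hBa jj hjj
  have hq0 : ∀ x ∉ bal n, q₀ x = 0 := (hBA.2.2.1 ∅ φ q₀ (fun _ => 1) q₀ (bt_triv hBa)).1
  have hsupp : HasCompactSupport (cx q₀) := by
    refine HasCompactSupport.intro core_compact fun x hx => ?_
    have := hq0 x fun h => hx (bal_core h)
    simp [cx, this]
  have hq0s : ContDiff ℝ ∞ (cx q₀) := Complex.ofRealCLM.contDiff.comp hBa.sq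
  obtain ⟨B, hB⟩ := exists_cl (k := n + 1) hq0s hsupp
  obtain ⟨C₁, hC₁, H₁⟩ := hUQ n B
  obtain ⟨C₂, hC₂, H₂⟩ := hGW n 1 φ q₀ hBa
  refine ⟨max C₁ (2 * C₂), le_max_of_le_left hC₁, ?_⟩
  intro X hX Ω t t' q q' hT hT' a ha hS hS' hXa hG hG' w K hD hpsh
  have hX1 : C₁ ≤ X := (le_max_left _ _).trans hX
  have hX2 : 2 * C₂ ≤ X := (le_max_right _ _).trans hX
  have hX0 : 0 < X := by linarith
  have hXa1 : C₁ * X * a ≤ 1 := by
    refine le_trans ?_ hXa
    gcongr
    exact le_max_left _ _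
  have hXa2 : C₂ * X * a ≤ 1 := by
    refine le_trans ?_ hXa
    gcongr
    exact le_trans (by linarith) (le_max_right C₁ (2 * C₂))
  -- uniqueness in the three cases
  have hu : ∀ (i : Fin n) (t : MF n) (q : V n → ℝ), Bt Ω φ q₀ t q → Sz (n + 3) a t q₀ q →
      ∀ (c c' : Ix n → ℂ) (u u' : V n → ℂ), SolQ (zs 1 i (xg jj X i)) (th0 i) t q c u →
      SolQ (zs 1 i (xg jj X i)) (th0 i) t q c' u' → u = u' := by
    intro i t q hT hS c c' u u' h h'
    refine solQ_eq h h' (H₁ i 1 (xg jj X i) (Or.inl rfl) (xg_self jj X (hjj i)) ?_ t q₀ q hT.sm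
      hBa.sq hT.sq (fun x hx => hT.off x fun h => hx (bal_core (hT.sub h)))
      (fun x hx => hq0 x fun h => hx (bal_core h)) (fun x hx => ?_) hB a ha
      (sz_le hS (by omega)) ?_ c c' u u' h h')
    · rw [nr_xg jj hX0.le]; exact hX1
    · exact (hBA.2.2.1 Ω φ q₀ t q hT).2.1 x fun h => hx (bal_core h)
    · rw [nr_xg jj hX0.le]; exact hXa1
  have hu0 : ∀ (i : Fin n) (c c' : Ix n → ℂ) (u u' : V n → ℂ),
      SolQ (zs 1 i (xg jj X i)) (th0 i) (fun _ => 1) q₀ c u →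
      SolQ (zs 1 i (xg jj X i)) (th0 i) (fun _ => 1) q₀ c' u' → u = u' := by
    intro i c c' u u' h h'
    refine solQ_eq h h' (H₁ i 1 (xg jj X i) (Or.inl rfl) (xg_self jj X (hjj i)) ?_ (fun _ => 1)
      q₀ q₀ (fun _ _ => contDiff_const) hBa.sq hBa.sq (fun x _ => rfl)
      (fun x hx => hq0 x fun h => hx (bal_core h)) (fun x hx => hq0 x fun h => hx (bal_core h))
      hB 0 le_rfl (sz_triv _ _) ?_ c c' u u' h h')
    · rw [nr_xg jj hX0.le]; exact hX1
    · rw [mul_zero]; exact zero_le_one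
  obtain ⟨c₀, c, u₀, u, w₁, w₂, hs0, hs, hoff, hw1, -, -, hcl1, -, -, hv, -⟩ :=
    H₂ X (by linarith) jj hjj Ω t q hT a ha (sz_le hS (by omega)) hXa2
  -- `K` fixes the complement and preserves `Ω`
  have hKoff : ∀ y ∉ Ω, K y = y := by
    intro y hy
    have := hD.l y
    rwa [hD.z y hy, add_zero] at this
  have hKin : ∀ y ∈ Ω, K y ∈ Ω := by
    intro y hy
    by_contra h
    have := hD.r y
    rw [hD.z _ h, add_zero] at this
    exact h (this.symm ▸ hy)
  have hΩc : Ω ⊆ cube n := fun x hx => core_cube (bal_core (hT.sub hx))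
  -- the modulus of `u₀ / φ` is invariant
  have key : ∀ i, ∀ y ∈ Ω, ‖u₀ i y‖ / φ y = ‖u₀ i (K y)‖ / φ (K y) := by
    intro i y hy
    have hφ := hBa.p.2
    obtain ⟨d₀, d, v₀, v, hv0, hv1, hvn⟩ := hG i
    obtain ⟨d₀', d', v₀', v', hv0', hv1', hvn'⟩ := hG' i
    have e1 : v₀ = u₀ i := hu0 i _ _ _ _ hv0 (hs0 i)
    have e2 : v = u i := hu i t q hT hS _ _ _ _ hv1 (hs i)
    have e3 : v₀' = u₀ i := hu0 i _ _ _ _ hv0' (hs0 i)
    obtain ⟨d'', u'', h1, h2⟩ := hCV Ω φ q₀ t t' q q' hT hT' w K hD hpsh i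
      (zs 1 i (xg jj X i)) (c₀ i) (c i) (u₀ i) (u i) (hs0 i) (hs i) (hoff i)
    have e4 : v' = u'' := hu i t' q' hT' hS' _ _ _ _ hv1' h1
    have h3 : ‖u₀ i y‖ = ‖u'' y‖ := by rw [← e4, ← e3]; exact (hvn' y (hΩc hy)).symm
    have h4 : ‖u i (K y)‖ = ‖u₀ i (K y)‖ := by
      rw [← e1, ← e2]; exact hvn (K y) (hΩc (hKin y hy))
    rw [h3, h2 y (hΩc hy), norm_mul, norm_div, h4, Complex.norm_real, Complex.norm_real,
      Real.norm_of_nonneg (hφ y).le, Real.norm_of_nonneg (hφ (K y)).le]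
    field_simp [(hφ y).ne']
  have hfix : ∀ y ∈ Ω, K y = y := by
    intro y hy
    have h1 : ∀ i, y i + w₁ y i = K y i + w₁ (K y) i := by
      intro i
      have h := key i y hy
      rw [hv i y, hv i (K y), mul_div_cancel_left₀ _ (hBa.p.2 y).ne',
        mul_div_cancel_left₀ _ (hBa.p.2 (K y)).ne', Real.exp_eq_exp] at h
      exact mul_left_cancel₀ (mul_pos Real.pi_pos hX0).ne' h
    have h2 : y - K y = w₁ (K y) - w₁ y := by
      funext i
      have := h1 i
      simp only [Pi.sub_apply]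
      linarith
    have h3 := lip hw1 hcl1 (K y) y
    rw [← h2, norm_sub_rev (K y) y] at h3
    have h4 : C₂ / X ≤ 1 / 2 := by
      rw [div_le_div_iff₀ hX0 two_pos]; linarith
    have h5 : ‖y - K y‖ ≤ 1 / 2 * ‖y - K y‖ := h3.trans (by gcongr)
    have h6 : ‖y - K y‖ = 0 := by
      have := norm_nonneg (y - K y)
      linarith
    exact (sub_eq_zero.1 (norm_eq_zero.1 h6)).symm
  intro x
  by_cases hx : x ∈ Ω
  · have hy : x + w x ∈ Ω := by
      by_contra h
      have h1 := hKoff _ h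
      rw [hD.l x] at h1
      exact h (h1 ▸ hx)
    have h1 := hfix _ hy
    rw [hD.l x] at h1
    simpa using h1.symm
  · exact hD.z x hx

end Vale.Agent.P088.H745
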