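import Vale.Agent.P088.H442.CFAsm
import Vale.Agent.P088.H925.Scale

/-!
# P088, theorem D, row D_MET: pointwise algebra of `det`, inverse and scaling
-/

open MeasureTheory Set
open scoped ContDiff Matrix

noncomputable section

namespace Vale.Agent.P088.H745.DM

open Vale.Agent.P088.LR Vale.Agent.P088.LR.CF Vale.Agent.P088.LR.H925

variable {n : ℕ}

/-- Entries of the inverse of a matrix with bounded entries and determinant bounded below. -/
theorem inv_bd (n : ℕ) (B : ℝ) : ∃ C : ℝ, 0 ≤ C ∧ ∀ M : Matrix (Fin n) (Fin n) ℝ,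
    (∀ i j, |M i j| ≤ B) → 0 < M.det → B⁻¹ ≤ M.det → 0 < B → ∀ i j, |M⁻¹ i j| ≤ C := by
  have hK : IsCompact {M : Fin n → Fin n → ℝ | ∀ i j, M i j ∈ Icc (-B) B} := by
    have h1 : {M : Fin n → Fin n → ℝ | ∀ i j, M i j ∈ Icc (-B) B}
        = Set.pi univ fun _ : Fin n => Set.pi univ fun _ : Fin n => Icc (-B) B := by
      ext M
      simp only [Set.mem_ofPred_eq, Set.mem_pi, Set.mem_univ, forall_true_left]
    rw [h1]
    exact isCompact_univ_pi fun _ => isCompact_univ_pi fun _ => isCompact_Icc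
  have hc : ∀ i j : Fin n, ContinuousOn (fun M : Fin n → Fin n → ℝ =>
      (Matrix.of M).adjugate i j) {M : Fin n → Fin n → ℝ | ∀ i j, M i j ∈ Icc (-B) B} := by
    intro i j
    have h2 : Continuous fun M : Fin n → Fin n → ℝ => (Matrix.of M).adjugate i j := by
      have h3 : Continuous fun M : Matrix (Fin n) (Fin n) ℝ => M.adjugate :=
        Continuous.matrix_adjugate continuous_id
      exact (continuous_apply j).comp ((continuous_apply i).comp h3)
    exact h2.continuousOn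
  have hb := fun i j => hK.exists_bound_of_continuousOn (hc i j)
  choose D hD using hb
  refine ⟨(∑ i, ∑ j, |D i j|) * |B|, by positivity, ?_⟩
  intro M hM hd0 hdet hB i j
  have h1 : ‖(Matrix.of (fun a b => M a b)).adjugate i j‖ ≤ D i j :=
    hD i j (fun a b => M a b) fun a b => abs_le.1 (hM a b)
  have h2 : (Matrix.of (fun a b => M a b)) = M := rfl
  rw [h2, Real.norm_eq_abs] at h1
  have h3 : M⁻¹ i j = M.det⁻¹ * M.adjugate i j := by
    rw [Matrix.inv_def, Matrix.smul_apply, smul_eq_mul, Ring.inverse_eq_inv']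
  rw [h3, abs_mul, abs_of_pos (inv_pos.2 hd0)]
  have h4 : M.det⁻¹ ≤ |B| := by
    rw [abs_of_pos hB]
    exact inv_le_of_inv_le₀ hB hdet
  have h5 : |M.adjugate i j| ≤ ∑ i, ∑ j, |D i j| := by
    refine h1.trans ((le_abs_self _).trans ?_)
    refine (Finset.single_le_sum (f := fun j => |D i j|) (fun _ _ => abs_nonneg _)
      (Finset.mem_univ j)).trans ?_
    exact Finset.single_le_sum (f := fun i => ∑ j, |D i j|)
      (fun _ _ => Finset.sum_nonneg fun _ _ => abs_nonneg _) (Finset.mem_univ i)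
  calc M.det⁻¹ * |M.adjugate i j| ≤ |B| * ∑ i, ∑ j, |D i j| :=
        mul_le_mul h4 h5 (abs_nonneg _) (abs_nonneg _)
    _ = _ := mul_comm _ _

/-- `t - 1` is small when `g` is near `(det g)^(1/n) e`. -/
theorem met_sm (n : ℕ) (B : ℝ) (hB : 0 < B) : ∃ C : ℝ, 0 ≤ C ∧
    ∀ M : Matrix (Fin n) (Fin n) ℝ, (∀ i j, |M i j| ≤ B) → B⁻¹ ≤ M.det → ∀ ε : ℝ, 0 ≤ ε →
    (∀ i j, |M i j - (M.det ^ (1 / (n : ℝ)) • (1 : Matrix (Fin n) (Fin n) ℝ)) i j| ≤ ε) →
    ∀ i j, |(M.det ^ (1 / (n : ℝ)) • M⁻¹) i j - (1 : Matrix (Fin n) (Fin n) ℝ) i j| ≤ C * ε := by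
  obtain ⟨C, hC0, hC⟩ := inv_bd n B
  refine ⟨n * C, by positivity, ?_⟩
  intro M hM hdet ε hε hc i j
  have hd0 : 0 < M.det := lt_of_lt_of_le (inv_pos.2 hB) hdet
  have h1 : M.det ^ (1 / (n : ℝ)) • M⁻¹ - 1
      = M⁻¹ * (M.det ^ (1 / (n : ℝ)) • (1 : Matrix (Fin n) (Fin n) ℝ) - M) := by
    rw [mul_sub, Matrix.nonsing_inv_mul _ (isUnit_iff_ne_zero.2 hd0.ne'), Matrix.mul_smul,
      mul_one]
  have h2 : (M.det ^ (1 / (n : ℝ)) • M⁻¹) i j - (1 : Matrix (Fin n) (Fin n) ℝ) i j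
      = ∑ a, M⁻¹ i a * ((M.det ^ (1 / (n : ℝ)) • (1 : Matrix (Fin n) (Fin n) ℝ)) a j - M a j) := by
    have := congrFun (congrFun h1 i) j
    rw [Matrix.sub_apply, Matrix.mul_apply] at this
    simpa only [Matrix.sub_apply] using this
  rw [h2]
  calc |∑ a, M⁻¹ i a * ((M.det ^ (1 / (n : ℝ)) • (1 : Matrix (Fin n) (Fin n) ℝ)) a j - M a j)|
      ≤ ∑ a, |M⁻¹ i a * ((M.det ^ (1 / (n : ℝ)) • (1 : Matrix (Fin n) (Fin n) ℝ)) a j - M a j)| :=
        Finset.abs_sum_le_sum_abs _ _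
    _ ≤ ∑ _a : Fin n, C * ε := by
        refine Finset.sum_le_sum fun a _ => ?_
        rw [abs_mul]
        refine mul_le_mul (hC M hM hd0 hdet hB i a) ?_ (abs_nonneg _) hC0
        rw [abs_sub_comm]
        exact hc a j
    _ = n * C * ε := by
        rw [Finset.sum_const, Finset.card_univ, Fintype.card_fin, nsmul_eq_mul]
        ring

/-- `sg g = φ₂² t`. -/
theorem met_fac {M : Matrix (Fin n) (Fin n) ℝ} (hd : 0 < M.det) (hn : 1 ≤ n) :
    √M.det • M⁻¹ = (M.det ^ (((n : ℝ) - 2) / (4 * n))) ^ 2 • (M.det ^ (1 / (n : ℝ)) • M⁻¹) := by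
  have hn' : (n : ℝ) ≠ 0 := by
    have : (0 : ℝ) < n := by exact_mod_cast hn
    exact this.ne'
  rw [smul_smul]
  congr 1
  rw [← Real.rpow_natCast, ← Real.rpow_mul hd.le, ← Real.rpow_add hd, Real.sqrt_eq_rpow]
  congr 1
  push_cast
  field_simp
  ring

theorem det_sc (a : ℝ) : (a • (1 : Matrix (Fin n) (Fin n) ℝ)).det = a ^ n := by
  rw [Matrix.det_smul, Matrix.det_one, mul_one, Fintype.card_fin]

/-- The conformal tensor of `c e` is `1`. -/
theorem met_sc {c : ℝ} (hc : 0 < c) (hn : 1 ≤ n) :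
    ((c • (1 : Matrix (Fin n) (Fin n) ℝ)).det ^ (1 / (n : ℝ)))
      • (c • (1 : Matrix (Fin n) (Fin n) ℝ))⁻¹ = 1 := by
  have hn' : (n : ℝ) ≠ 0 := by
    have : (0 : ℝ) < n := by exact_mod_cast hn
    exact this.ne'
  have h1 : (c • (1 : Matrix (Fin n) (Fin n) ℝ))⁻¹ = c⁻¹ • 1 := by
    apply Matrix.inv_eq_right_inv
    rw [Matrix.smul_mul, Matrix.one_mul, smul_smul, mul_inv_cancel₀ hc.ne', one_smul]
  rw [h1, det_sc, ← Real.rpow_natCast c n, ← Real.rpow_mul hc.le, mul_one_div_cancel hn',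
    Real.rpow_one, smul_smul, mul_inv_cancel₀ hc.ne', one_smul]

/-- The factor `φ₂` of `c e`. -/
theorem met_phi {c : ℝ} (hc : 0 < c) (hn : 1 ≤ n) :
    (c • (1 : Matrix (Fin n) (Fin n) ℝ)).det ^ (((n : ℝ) - 2) / (4 * n))
      = √(√(c ^ n) * c⁻¹) := by
  have hn' : (n : ℝ) ≠ 0 := by
    have : (0 : ℝ) < n := by exact_mod_cast hn
    exact this.ne'
  rw [det_sc, Real.sqrt_eq_rpow, Real.sqrt_eq_rpow, ← Real.rpow_natCast c n,
    ← Real.rpow_mul hc.le, ← Real.rpow_mul hc.le, ← Real.rpow_neg_one, ← Real.rpow_add hc,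
    ← Real.rpow_mul hc.le]
  congr 1
  field_simp
  ring

/-- Pointwise scaling of the derivatives. -/
theorem ps_pt {F : Type*} [NormedAddCommGroup F] [NormedSpace ℝ F] {f : V n → F}
    (hf : ContDiff ℝ ∞ f) {k : ℕ} {t : ℝ} (ht : 0 < t) {l : ℕ} (hl : l ≤ k) (x : V n) :
    ‖iteratedFDeriv ℝ l (fun y => f (ps t y)) x‖
      ≤ max 1 t ^ k * ‖iteratedFDeriv ℝ l f (ps t x)‖ := by
  have h1 : iteratedFDeriv ℝ l (fun y => f (ps t y)) x =
      iteratedFDeriv ℝ l (fun z => f (t • z)) (x - fun _ => (1 / 2 : ℝ)) := by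
    have := iteratedFDeriv_comp_sub' (𝕜 := ℝ) (f := fun z => f (t • z)) l (fun _ => (1 / 2 : ℝ))
    exact congrFun this x
  have h2 : iteratedFDeriv ℝ l (fun z => f (t • z)) (x - fun _ => (1 / 2 : ℝ)) =
      (iteratedFDeriv ℝ l f (ps t x)).compContinuousLinearMap
        fun _ => t • ContinuousLinearMap.id ℝ (V n) := by
    have := ContinuousLinearMap.iteratedFDeriv_comp_right (t • ContinuousLinearMap.id ℝ (V n))
      (f := f) (n := ∞) hf (x - fun _ => (1 / 2 : ℝ)) (i := l) (by exact_mod_cast le_top)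
    exact this
  rw [h1, h2]
  refine (ContinuousMultilinearMap.norm_compContinuousLinearMap_le _ _).trans ?_
  have h3 : ‖t • ContinuousLinearMap.id ℝ (V n)‖ ≤ max 1 t := by
    rw [norm_smul, Real.norm_of_nonneg ht.le]
    calc t * ‖ContinuousLinearMap.id ℝ (V n)‖ ≤ t * 1 := by
          gcongr; exact ContinuousLinearMap.norm_id_le
      _ ≤ _ := by rw [mul_one]; exact le_max_right _ _
  rw [Finset.prod_const, Finset.card_univ, Fintype.card_fin, mul_comm]
  refine mul_le_mul_of_nonneg_right ?_ (norm_nonneg _)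
  calc ‖t • ContinuousLinearMap.id ℝ (V n)‖ ^ l ≤ max 1 t ^ l := by gcongr
    _ ≤ max 1 t ^ k := pow_le_pow_right₀ (le_max_left _ _) hl

end Vale.Agent.P088.H745.DM
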